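import Vale.Agent.P207.N3.H147.Fwd
import Vale.Agent.P207.N3.H147.Hold
import Vale.Agent.P207.H575.T3.Res

/-!
# P207, line N3 (P4, E2): the field conv3 of the forward coordinates follows from the field conv

`close_of_close0`: on a ball, `C⁰` closeness and bounds of the derivatives give `C^k` closeness on
the whole open ball. `conv3_of_conv`: the literal statement.
-/

open Set Filter Topology Metric MeasureTheory
open scoped ContDiff Nat
open Vale.Agent.P207.N3.H147 (R R_mem e_R R_smooth R_bound R_lip)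

noncomputable section

namespace Vale.Agent.P207.N3.H686

theorem close_of_close0 (k : ℕ) {M : ℝ} (hM : 0 ≤ M) {ε : ℝ} (hε : 0 < ε) :
    ∃ η > 0, ∀ f g : E2 → E2,
    ContDiffOn ℝ ∞ f (ball 0 3) → ContDiffOn ℝ ∞ g (ball 0 3) →
    (∀ j ≤ 2 * k + 1, ∀ u ∈ ball (0 : E2) 3, ‖iteratedFDeriv ℝ j f u‖ ≤ M) →
    (∀ j ≤ 2 * k + 1, ∀ u ∈ ball (0 : E2) 3, ‖iteratedFDeriv ℝ j g u‖ ≤ M) →
    (∀ u ∈ ball (0 : E2) 3, ‖f u - g u‖ ≤ η) →
    ∀ u ∈ ball (0 : E2) 3, ‖iteratedFDeriv ℝ k f u - iteratedFDeriv ℝ k g u‖ ≤ ε := by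
  obtain ⟨A, hA, hI⟩ := H545.exists_interp_scale.{0} k (2 * k + 1) (by omega)
  have hden : 0 < 6 * M + 2 * A * M + 1 := by positivity
  set h : ℝ := min 1 (ε / (2 * (6 * M + 2 * A * M + 1))) with hh
  have hh0 : 0 < h := lt_min one_pos (by positivity)
  have hh1 : h ≤ 1 := min_le_left _ _
  have hh2 : (6 * M + 2 * A * M) * h ≤ ε / 2 := by
    have h1 : h ≤ ε / (2 * (6 * M + 2 * A * M + 1)) := min_le_right _ _
    rw [le_div_iff₀ (by positivity)] at h1
    nlinarith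
  have hinv : 0 < h⁻¹ ^ k := by positivity
  refine ⟨ε / (2 * (A * h⁻¹ ^ k + 1)), by positivity, fun f g hf hg hfM hgM hfg u hu => ?_⟩
  set η := ε / (2 * (A * h⁻¹ ^ k + 1)) with hη
  have hη2 : A * (h⁻¹ ^ k * η) ≤ ε / 2 := by
    have h1 : 0 < A * h⁻¹ ^ k + 1 := by positivity
    have h2 : η * (2 * (A * h⁻¹ ^ k + 1)) = ε := by
      rw [hη]
      field_simp
    have h3 : 0 < η := by rw [hη]; positivity
    nlinarith
  -- Lipschitz bound
  have hL : ∀ F : E2 → E2, ContDiffOn ℝ ∞ F (ball 0 3) →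
      (∀ j ≤ 2 * k + 1, ∀ u ∈ ball (0 : E2) 3, ‖iteratedFDeriv ℝ j F u‖ ≤ M) →
      ∀ v ∈ ball (0 : E2) 3, ∀ w ∈ ball (0 : E2) 3,
      ‖iteratedFDeriv ℝ k F v - iteratedFDeriv ℝ k F w‖ ≤ M * ‖v - w‖ := by
    intro F hF hFM v hv w hw
    have hd : ∀ z ∈ ball (0 : E2) 3, DifferentiableAt ℝ (iteratedFDeriv ℝ k F) z := by
      intro z hz
      have h1 := hF.contDiffAt (isOpen_ball.mem_nhds hz)
      have h2 : ContDiffAt ℝ 1 (iteratedFDeriv ℝ k F) z :=
        h1.iteratedFDeriv_right (m := 1) (i := k) (by exact_mod_cast le_top)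
      exact h2.differentiableAt (by simp)
    have hb : ∀ z ∈ ball (0 : E2) 3, ‖fderiv ℝ (iteratedFDeriv ℝ k F) z‖ ≤ M := by
      intro z hz
      rw [norm_fderiv_iteratedFDeriv]
      exact hFM (k + 1) (by omega) z hz
    exact (convex_ball (0 : E2) 3).norm_image_sub_le_of_norm_fderiv_le (𝕜 := ℝ) hd hb hw hv
  -- the inner point
  have hu3 : ‖u‖ < 3 := mem_ball_zero_iff.1 hu
  set u' : E2 := (1 - h) • u with hu'
  have hnu' : ‖u'‖ ≤ 3 - 3 * h := by
    rw [hu', norm_smul, Real.norm_of_nonneg (by linarith)]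
    nlinarith
  have huu' : ‖u - u'‖ ≤ 3 * h := by
    have : u - u' = h • u := by rw [hu']; module
    rw [this, norm_smul, Real.norm_of_nonneg hh0.le]
    nlinarith
  have hsub : ∀ y ∈ closedBall u' h, y ∈ ball (0 : E2) 3 := by
    intro y hy
    rw [mem_ball_zero_iff]
    rw [mem_closedBall, dist_eq_norm] at hy
    calc ‖y‖ = ‖u' + (y - u')‖ := by rw [add_sub_cancel]
      _ ≤ ‖u'‖ + ‖y - u'‖ := norm_add_le _ _
      _ ≤ (3 - 3 * h) + h := add_le_add hnu' hy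
      _ < 3 := by linarith
  have hu'm : u' ∈ ball (0 : E2) 3 := hsub u' (mem_closedBall_self hh0.le)
  have hcd : ∀ F : E2 → E2, ContDiffOn ℝ ∞ F (ball 0 3) → ∀ n : ℕ, ∀ y ∈ ball (0 : E2) 3,
      ContDiffAt ℝ n F y := fun F hF n y hy =>
    contDiffAt_infty.1 (hF.contDiffAt (isOpen_ball.mem_nhds hy)) n
  have hmid : ‖iteratedFDeriv ℝ k f u' - iteratedFDeriv ℝ k g u'‖ ≤ ε / 2 + 2 * A * M * h := by
    have h1 := hI E2 E2 (f - g) u' h η (2 * M) hh0
      (fun y hy => (hcd f hf _ y (hsub y hy)).sub (hcd g hg _ y (hsub y hy)))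
      (fun y hy => by
        simp only [Pi.sub_apply]
        exact hfg y (hsub y hy))
      (fun y hy => by
        rw [iteratedFDeriv_sub_apply (hcd f hf _ y (hsub y hy)) (hcd g hg _ y (hsub y hy))]
        refine (norm_sub_le _ _).trans ?_
        have e1 := hfM (2 * k + 1) le_rfl y (hsub y hy)
        have e2 := hgM (2 * k + 1) le_rfl y (hsub y hy)
        linarith)
    rw [iteratedFDeriv_sub_apply (hcd f hf _ u' hu'm) (hcd g hg _ u' hu'm)] at h1
    refine h1.trans ?_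
    have h2 : h ^ (2 * k + 1 - k) ≤ h := by
      calc h ^ (2 * k + 1 - k) ≤ h ^ 1 := pow_le_pow_of_le_one hh0.le hh1 (by omega)
        _ = h := pow_one h
    have h3 : A * (h ^ (2 * k + 1 - k) * (2 * M)) ≤ A * (h * (2 * M)) := by
      gcongr
    rw [mul_add]
    linarith
  have hf1 := hL f hf hfM u hu u' hu'm
  have hg1 := hL g hg hgM u' hu'm u hu
  rw [norm_sub_rev u' u] at hg1
  have hM3 : M * ‖u - u'‖ ≤ M * (3 * h) := mul_le_mul_of_nonneg_left huu' hM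
  calc ‖iteratedFDeriv ℝ k f u - iteratedFDeriv ℝ k g u‖
      = ‖(iteratedFDeriv ℝ k f u - iteratedFDeriv ℝ k f u')
        + (iteratedFDeriv ℝ k f u' - iteratedFDeriv ℝ k g u')
        + (iteratedFDeriv ℝ k g u' - iteratedFDeriv ℝ k g u)‖ := by
          congr 1
          abel
    _ ≤ M * (3 * h) + (ε / 2 + 2 * A * M * h) + M * (3 * h) := by
        refine (norm_add_le _ _).trans (add_le_add ((norm_add_le _ _).trans
          (add_le_add (hf1.trans hM3) hmid)) (hg1.trans hM3))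
    _ = ε / 2 + (6 * M + 2 * A * M) * h := by ring
    _ ≤ ε := by linarith

variable {Γ X B : Type} [Group Γ] [MetricSpace X] [ProperSpace X] [MulAction Γ X]
  [IsIsometricSMul Γ X] [TopologicalSpace B] [CompactSpace B] [T2Space B] [MulAction Γ B]
  [ContinuousConstSMul Γ B]

/-- the first contraction depends on the frame uniformly continuously, on the closed disc -/
theorem R_unif (L : Leaf Γ X B) {Q : Set X} (hQ : IsCompact Q) {ε : ℝ} (hε : 0 < ε) :
    ∃ δ > 0, ∀ z ∈ Q, ∀ x, dist z x ≤ δ → ∀ u ∈ closedBall (0 : E2) 3,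
      ‖R L L.t1 x u - R L L.t1 z u‖ ≤ ε := by
  by_contra hcon
  push Not at hcon
  have hc : ∀ n : ℕ, ∃ z ∈ Q, ∃ x, dist z x ≤ 1 / ((n : ℝ) + 1) ∧ ∃ u ∈ closedBall (0 : E2) 3,
      ε < ‖R L L.t1 x u - R L L.t1 z u‖ := fun n => hcon (1 / ((n : ℝ) + 1)) (by positivity)
  choose z hz x hx u hu hbad using hc
  obtain ⟨⟨z₀, u₀⟩, ⟨hz₀, hu₀⟩, ψ, hψ, hlim⟩ :=
    (hQ.prod (isCompact_closedBall (0 : E2) 3)).tendsto_subseq
      (x := fun n => (z n, u n)) (fun n => ⟨hz n, hu n⟩)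
  have hlz : Tendsto (fun n => z (ψ n)) atTop (𝓝 z₀) := (continuous_fst.tendsto _).comp hlim
  have hlu : Tendsto (fun n => u (ψ n)) atTop (𝓝 u₀) := (continuous_snd.tendsto _).comp hlim
  have hlx : Tendsto (fun n => x (ψ n)) atTop (𝓝 z₀) := by
    have h1 : Tendsto (fun n => dist (z (ψ n)) (x (ψ n))) atTop (𝓝 0) := by
      refine squeeze_zero (fun n => dist_nonneg) (fun n => hx _) ?_
      exact tendsto_one_div_add_atTop_nhds_zero_nat.comp hψ.tendsto_atTop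
    exact (tendsto_iff_of_dist h1).1 hlz
  have key : ∀ w : ℕ → X, Tendsto w atTop (𝓝 z₀) →
      Tendsto (fun n => R L L.t1 (w n) (u (ψ n))) atTop (𝓝 (R L L.t1 z₀ u₀)) := by
    intro w hw
    have h1 : L.e z₀ (R L L.t1 z₀ u₀) = L.e (L.φ L.t1 z₀) u₀ := e_R z₀ le_rfl hu₀
    have h2 : Tendsto (fun n => L.e (L.φ L.t1 (w n)) (u (ψ n))) atTop
        (𝓝 (L.e z₀ (R L L.t1 z₀ u₀))) := by
      rw [h1]
      have h3 := L.e_cont (L.φ L.t1 z₀, u₀) ⟨trivial, hu₀⟩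
      exact h3.tendsto.comp (tendsto_nhdsWithin_iff.2
        ⟨(((L.φ_cont' L.t1).tendsto z₀).comp hw).prodMk_nhds hlu,
          Eventually.of_forall fun n => ⟨trivial, hu _⟩⟩)
    exact (L.inv_tendsto hw h2 (ball_subset_ball (by norm_num) (R_mem z₀ le_rfl hu₀))).2
  have h0 := ((key _ hlx).sub (key _ hlz)).norm
  rw [sub_self, norm_zero] at h0
  obtain ⟨n, hn⟩ := (h0.eventually (gt_mem_nhds hε)).exists
  exact absurd hn (not_lt.2 (hbad _).le)

/-- **conv3 from conv** -/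
theorem conv3_of_conv {L : Leaf Γ X B} (o : Orb L) {x : B → E2} (hx : L.SmoothOn o.neg x)
    {N : E2 → E2} {c : ℝ} (hc : 0 < c) {F : B → B → E2}
    (conv : ∀ K : Set B, IsCompact K → o.pos ∉ K → ∀ Q : Set X, IsCompact Q →
      (∀ y ∈ Q, L.em y = o.neg) → ∀ k : ℕ, ∃ C, ∀ᶠ m : ℕ in atTop, ∀ ζ ∈ K, ∀ y ∈ Q,
      (o.β ^ m)⁻¹ • ζ ≠ L.ep y ∧
      (∀ u ∈ closedBall (0 : E2) 3, o.β ^ m • L.e (L.hol ((o.β ^ m)⁻¹ • ζ) y) u
        ∈ L.e (L.hol ζ o.x) '' ball 0 1) ∧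
      ContDiffOn ℝ ∞ (fun u => N^[m] (F ζ (o.β ^ m • L.e (L.hol ((o.β ^ m)⁻¹ • ζ) y) u)))
        (ball 0 3) ∧
      ∀ u ∈ closedBall (0 : E2) 1,
        ‖iteratedFDeriv ℝ k
            (fun u => N^[m] (F ζ (o.β ^ m • L.e (L.hol ((o.β ^ m)⁻¹ • ζ) y) u))) u
          - iteratedFDeriv ℝ k (fun u => x (L.e y u)) u‖ ≤ C * Real.exp (-c * o.l * m)) :
    ∀ K : Set B, IsCompact K → o.pos ∉ K → ∀ Q : Set X, IsCompact Q →
    (∀ y ∈ Q, L.em y = o.neg) → ∀ k : ℕ, ∀ ε > 0, ∀ᶠ m : ℕ in atTop, ∀ ζ ∈ K, ∀ y ∈ Q,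
    ∀ u ∈ ball (0 : E2) 3,
      ‖iteratedFDeriv ℝ k
          (fun u => N^[m] (F ζ (o.β ^ m • L.e (L.hol ((o.β ^ m)⁻¹ • ζ) y) u))) u
        - iteratedFDeriv ℝ k (fun u => x (L.e y u)) u‖ ≤ ε := by
  intro K hK hKo Q hQ hQx k ε hε
  have ht1 := L.t1_pos
  have hl := o.ax.pos
  obtain ⟨Q', hQ'⟩ : ∃ Q' : Set X, Q' = L.φ (-L.t1) '' Q := ⟨_, rfl⟩
  have hQ'c : IsCompact Q' := by rw [hQ']; exact hQ.image (L.φ_cont' _)
  have hQ'x : ∀ z ∈ Q', L.em z = o.neg := by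
    rw [hQ']
    rintro _ ⟨y, hy, rfl⟩
    rw [L.em_φ, hQx y hy]
  obtain ⟨C₁, hC₁0, hC₁⟩ := L.start_bound hx hQ'c hQ'x
  choose C₂ hC₂ using fun j => L.init_bound hx hQ'c hQ'x (r := 1) (by norm_num) j
  choose C₃ hC₃ using fun j => conv K hK hKo Q' hQ'c hQ'x j
  choose D hD1 hD using fun j => R_bound L j
  obtain ⟨n, hn⟩ : ∃ n, n = 2 * k + 1 := ⟨_, rfl⟩
  set S : ℝ := ∑ i ∈ Finset.range (n + 1), (|C₂ i| + |C₃ i|) with hS
  have hS0 : 0 ≤ S := Finset.sum_nonneg fun i _ => by positivity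
  have hSi : ∀ i ≤ n, |C₂ i| + |C₃ i| ≤ S := fun i hi =>
    Finset.single_le_sum (f := fun i => |C₂ i| + |C₃ i|) (fun i _ => by positivity)
      (Finset.mem_range.2 (by omega))
  set E : ℝ := ∑ i ∈ Finset.range (n + 1), D i with hE
  have hDi : ∀ i ≤ n, D i ≤ E := fun i hi =>
    Finset.single_le_sum (f := D) (fun i _ => zero_le_one.trans (hD1 i))
      (Finset.mem_range.2 (by omega))
  have hE1 : 1 ≤ E := (hD1 0).trans (hDi 0 (Nat.zero_le _))
  have hterm : ∀ i : ℕ, 0 ≤ (i ! : ℝ) * S * E ^ i := fun i => by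
    have : 0 ≤ E := zero_le_one.trans hE1
    positivity
  set M : ℝ := ∑ i ∈ Finset.range (n + 1), ((i ! : ℝ) * S * E ^ i) + C₁ n with hMd
  have hM0 : 0 ≤ M := add_nonneg (Finset.sum_nonneg fun i _ => hterm i) (hC₁0 n)
  have hMi : ∀ i ≤ n, (i ! : ℝ) * S * E ^ i ≤ M := fun i hi => by
    have h1 := Finset.single_le_sum (f := fun i : ℕ => (i ! : ℝ) * S * E ^ i) (fun i _ => hterm i)
      (Finset.mem_range.2 (by omega : i < n + 1))
    have h2 := hC₁0 n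
    rw [hMd]
    exact h1.trans (le_add_of_nonneg_right h2)
  have hM1 : C₁ n ≤ M := by
    rw [hMd]
    exact le_add_of_nonneg_left (Finset.sum_nonneg fun i _ => hterm i)
  obtain ⟨η, hη, hclose⟩ := close_of_close0 k hM0 hε
  obtain ⟨δ, hδ, hR⟩ := R_unif L hQ'c (ε := η / (2 * (|C₂ 1| + 1))) (by positivity)
  obtain ⟨C₄, hC₄⟩ := H147.Ax.key o.ax hK hKo hQ'c hQ'x
  have ev1 : ∀ᶠ m : ℕ in atTop, |C₃ 0| * Real.exp (-c * o.l * m) ≤ η / 2 := by
    have h1 : Tendsto (fun m : ℕ => c * o.l * (m : ℝ)) atTop atTop :=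
      tendsto_natCast_atTop_atTop.const_mul_atTop (mul_pos hc hl)
    have h2 := (Real.tendsto_exp_neg_atTop_nhds_zero.comp h1).const_mul |C₃ 0|
    rw [mul_zero] at h2
    filter_upwards [h2.eventually (gt_mem_nhds (half_pos hη))] with m hm
    simp only [Function.comp_apply] at hm
    have e1 : -c * o.l * (m : ℝ) = -(c * o.l * m) := by ring
    rw [e1]
    exact hm.le
  have ev2 : ∀ᶠ m : ℕ in atTop, C₄ * Real.exp (-L.χ * (m * o.l + 0)) ≤ δ := by
    filter_upwards [(H147.Ax.tendsto_exp_aux o.ax C₄).eventually (gt_mem_nhds hδ)] with m hm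
    exact hm.le
  have ev3 := (Filter.eventually_all_finset (Finset.range (n + 1))).2 fun j _ => hC₃ j
  filter_upwards [ev1, ev2, ev3, hC₄] with m h1 h2 h3 h4
  intro ζ hζ y hy u hu
  obtain ⟨z, hz⟩ : ∃ z, z = L.φ (-L.t1) y := ⟨_, rfl⟩
  have hzQ : z ∈ Q' := by rw [hQ', hz]; exact mem_image_of_mem _ hy
  have hyz : y = L.φ L.t1 z := by rw [hz, H147.φ_sub_cancel]
  obtain ⟨hne, hdist⟩ := h4 ζ hζ z hzQ 0 (by
    have : 0 ≤ (m : ℝ) * o.l := by positivity
    linarith)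
  rw [L.φ_zero, L.φ_zero] at hdist
  set ζm : B := (o.β ^ m)⁻¹ • ζ with hζm
  set w : X := L.hol ζm z with hw
  have hwy : L.hol ζm y = L.φ L.t1 w := by rw [hyz, L.hol_φ _ _ _ hne]
  have hRw := hR z hzQ w (hdist.trans h2)
  -- the two functions
  set g : E2 → E2 := fun u => N^[m] (F ζ (o.β ^ m • L.e w u)) with hg
  have hgs : ContDiffOn ℝ ∞ g (ball 0 3) :=
    (h3 0 (Finset.mem_range.2 (by omega)) ζ hζ z hzQ).2.2.1
  have hgk : ∀ i ≤ n, ∀ v ∈ closedBall (0 : E2) 1,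
      ‖iteratedFDeriv ℝ i g v - iteratedFDeriv ℝ i (fun u => x (L.e z u)) v‖
        ≤ C₃ i * Real.exp (-c * o.l * m) := fun i hi =>
    (h3 i (Finset.mem_range.2 (by omega)) ζ hζ z hzQ).2.2.2
  have hexp1 : Real.exp (-c * o.l * m) ≤ 1 := by
    rw [Real.exp_le_one_iff]
    have : 0 ≤ c * o.l * m := by positivity
    linarith
  have hgS : ∀ i ≤ n, ∀ v ∈ closedBall (0 : E2) 1, ‖iteratedFDeriv ℝ i g v‖ ≤ S := by
    intro i hi v hv
    have e1 := hgk i hi v hv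
    have e2 := hC₂ i z hzQ v hv
    have e3 : C₃ i * Real.exp (-c * o.l * m) ≤ |C₃ i| := by
      calc C₃ i * Real.exp (-c * o.l * m) ≤ |C₃ i| * 1 :=
            mul_le_mul (le_abs_self _) hexp1 (Real.exp_nonneg _) (abs_nonneg _)
        _ = |C₃ i| := mul_one _
    calc ‖iteratedFDeriv ℝ i g v‖
        ≤ ‖iteratedFDeriv ℝ i (fun u => x (L.e z u)) v‖
          + ‖iteratedFDeriv ℝ i g v - iteratedFDeriv ℝ i (fun u => x (L.e z u)) v‖ := by
            have := norm_add_le (iteratedFDeriv ℝ i (fun u => x (L.e z u)) v)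
              (iteratedFDeriv ℝ i g v - iteratedFDeriv ℝ i (fun u => x (L.e z u)) v)
            rwa [add_sub_cancel] at this
      _ ≤ |C₂ i| + |C₃ i| := add_le_add (e2.trans (le_abs_self _)) (e1.trans e3)
      _ ≤ S := hSi i hi
  have hH : ∀ v ∈ ball (0 : E2) 3,
      (fun u => N^[m] (F ζ (o.β ^ m • L.e (L.hol ζm y) u))) v = g (R L L.t1 w v) := by
    intro v hv
    simp only [hg]
    rw [hwy, e_R w le_rfl (ball_subset_closedBall hv)]
  have hRm : MapsTo (R L L.t1 w) (ball 0 3) (ball 0 3) := fun v hv =>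
    ball_subset_ball (by norm_num) (R_mem w le_rfl (ball_subset_closedBall hv))
  have hyb := hC₁ n z hzQ L.t1 le_rfl
  rw [← hyz] at hyb
  refine hclose _ _ ?_ (hx y (hQx y hy)) ?_ ?_ ?_ u hu
  · exact (hgs.comp (R_smooth w le_rfl) hRm).congr hH
  · intro j hj v hv
    rw [← hn] at hj
    refine (norm_comp_le_open isOpen_ball isOpen_ball hgs (R_smooth w le_rfl) hRm hv j hE1
      (fun i hi => ?_) (fun i hi1 hi => ?_) hH).trans (hMi j hj)
    · exact hgS i (hi.trans hj) _ (ball_subset_closedBall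
        (R_mem w le_rfl (ball_subset_closedBall hv)))
    · exact ((hD i w L.t1 le_rfl v hv).1).trans (hDi i (hi.trans hj))
  · intro j hj v hv
    rw [← hn] at hj
    exact (hyb.2 j hj v hv).trans hM1
  · intro v hv
    have hv' := ball_subset_closedBall hv
    have e00 : N^[m] (F ζ (o.β ^ m • L.e (L.hol ζm y) v)) = g (R L L.t1 w v) := hH v hv
    rw [e00]
    have e0 : x (L.e y v) = x (L.e z (R L L.t1 z v)) := by rw [hyz, e_R z le_rfl hv']
    rw [e0]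
    have hm1 := R_mem (L := L) w le_rfl hv'
    have hm2 := R_mem (L := L) z le_rfl hv'
    have e1 := hgk 0 (Nat.zero_le _) _ (ball_subset_closedBall hm1)
    have e1q : ‖g (R L L.t1 w v) - x (L.e z (R L L.t1 w v))‖ ≤ C₃ 0 * Real.exp (-c * o.l * m) := by
      have hq := H147.norm_iter0_sub (E := E2) (F := E2) g (fun u => x (L.e z u)) (R L L.t1 w v)
        (R L L.t1 w v)
      rw [hq] at e1
      exact e1
    have e2 : ‖x (L.e z (R L L.t1 w v)) - x (L.e z (R L L.t1 z v))‖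
        ≤ |C₂ 1| * ‖R L L.t1 w v - R L L.t1 z v‖ := by
      refine (convex_ball (0 : E2) 1).norm_image_sub_le_of_norm_fderiv_le (𝕜 := ℝ)
        (f := fun u => x (L.e z u)) (fun a ha => ?_) (fun a ha => ?_) hm2 hm1
      · exact ((hx z (hQ'x z hzQ)).contDiffAt (isOpen_ball.mem_nhds
          (ball_subset_ball (by norm_num) ha))).differentiableAt (by simp)
      · have := hC₂ 1 z hzQ a (ball_subset_closedBall ha)
        rw [norm_iteratedFDeriv_one] at this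
        exact this.trans (le_abs_self _)
    have e3 := hRw v hv'
    have e4 : |C₂ 1| * ‖R L L.t1 w v - R L L.t1 z v‖ ≤ η / 2 := by
      have h5 : 0 < |C₂ 1| + 1 := by positivity
      have h6 : η / (2 * (|C₂ 1| + 1)) * (2 * (|C₂ 1| + 1)) = η := by field_simp
      have h7 : 0 < η / (2 * (|C₂ 1| + 1)) := by positivity
      have h8 := mul_le_mul_of_nonneg_left e3 (abs_nonneg (C₂ 1))
      nlinarith
    have e5 : C₃ 0 * Real.exp (-c * o.l * m) ≤ η / 2 :=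
      (mul_le_mul_of_nonneg_right (le_abs_self _) (Real.exp_nonneg _)).trans h1
    calc ‖g (R L L.t1 w v) - x (L.e z (R L L.t1 z v))‖
        ≤ ‖g (R L L.t1 w v) - x (L.e z (R L L.t1 w v))‖
          + ‖x (L.e z (R L L.t1 w v)) - x (L.e z (R L L.t1 z v))‖ := norm_sub_le_norm_sub_add_norm_sub _ _ _
      _ ≤ η / 2 + η / 2 := add_le_add (e1q.trans e5) (e2.trans e4)
      _ = η := add_halves η

end Vale.Agent.P207.N3.H686
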