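import Vale.Agent.P207.N3.H686.Conv3
import Vale.Agent.P207.H575.T3.Core

/-!
# P207, line N3 (P4, E2): tools for the field conv: rates, compositions, frames near the axis
-/

open Set Filter Topology Metric MeasureTheory
open scoped ContDiff Nat
open Vale.Agent.P207.N3.H147 (R R_mem e_R R_smooth R_bound R_lip)

noncomputable section

namespace Vale.Agent.P207.N3.H686

/-- closeness with a rate -/
theorem rate_of_close (k : ℕ) {M A : ℝ} (hM : 0 ≤ M) (hA : 0 ≤ A) : ∃ C, 0 ≤ C ∧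
    ∀ f g : E2 → E2, (∀ u ∈ closedBall (0 : E2) 2, ContDiffAt ℝ ∞ f u) →
    (∀ u ∈ closedBall (0 : E2) 2, ContDiffAt ℝ ∞ g u) →
    (∀ u ∈ closedBall (0 : E2) 2, ‖iteratedFDeriv ℝ (2 * k + 1) f u‖ ≤ M) →
    (∀ u ∈ closedBall (0 : E2) 2, ‖iteratedFDeriv ℝ (2 * k + 1) g u‖ ≤ M) →
    ∀ r : ℝ, 0 < r → r ≤ 1 → (∀ u ∈ closedBall (0 : E2) 2, ‖f u - g u‖ ≤ A * r ^ 2) →
    ∀ u ∈ closedBall (0 : E2) 1, ‖iteratedFDeriv ℝ k f u - iteratedFDeriv ℝ k g u‖ ≤ C * r := by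
  obtain ⟨A', hA', hI⟩ := H545.exists_interp_scale.{0} k (2 * k + 1) (by omega)
  refine ⟨A' * (A + 2 * M), by positivity, fun f g hf hg hfM hgM r hr0 hr1 hfg u hu => ?_⟩
  obtain ⟨h, hh⟩ : ∃ h : ℝ, h = r ^ (((k + 1 : ℕ) : ℝ)⁻¹) := ⟨_, rfl⟩
  have hpow : h ^ (k + 1) = r := by
    rw [hh]
    exact Real.rpow_inv_natCast_pow hr0.le (Nat.succ_ne_zero k)
  have hh0 : 0 < h := by rw [hh]; exact Real.rpow_pos_of_pos hr0 _
  have hh1 : h ≤ 1 := by
    rw [hh]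
    exact Real.rpow_le_one hr0.le hr1 (by positivity)
  have hsub : ∀ y ∈ closedBall u h, y ∈ closedBall (0 : E2) 2 := by
    intro y hy
    rw [mem_closedBall_zero_iff] at *
    rw [mem_closedBall, dist_eq_norm] at hy
    calc ‖y‖ = ‖u + (y - u)‖ := by rw [add_sub_cancel]
      _ ≤ ‖u‖ + ‖y - u‖ := norm_add_le _ _
      _ ≤ 1 + 1 := add_le_add hu (hy.trans hh1)
      _ = 2 := by norm_num
  have hcd : ∀ F : E2 → E2, (∀ u ∈ closedBall (0 : E2) 2, ContDiffAt ℝ ∞ F u) → ∀ n : ℕ,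
      ∀ y ∈ closedBall (0 : E2) 2, ContDiffAt ℝ n F y := fun F hF n y hy =>
    contDiffAt_infty.1 (hF y hy) n
  have hu2 : u ∈ closedBall (0 : E2) 2 := closedBall_subset_closedBall (by norm_num) hu
  have h1 := hI E2 E2 (f - g) u h (A * r ^ 2) (2 * M) hh0
    (fun y hy => (hcd f hf _ y (hsub y hy)).sub (hcd g hg _ y (hsub y hy)))
    (fun y hy => by
      simp only [Pi.sub_apply]
      exact hfg y (hsub y hy))
    (fun y hy => by
      rw [iteratedFDeriv_sub_apply (hcd f hf _ y (hsub y hy)) (hcd g hg _ y (hsub y hy))]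
      refine (norm_sub_le _ _).trans ?_
      have e1 := hfM y (hsub y hy)
      have e2 := hgM y (hsub y hy)
      linarith)
  rw [iteratedFDeriv_sub_apply (hcd f hf _ u hu2) (hcd g hg _ u hu2)] at h1
  refine h1.trans ?_
  have e1 : 2 * k + 1 - k = k + 1 := by omega
  rw [e1, hpow]
  have e2 : h⁻¹ ^ k * r ≤ 1 := by
    rw [inv_pow, inv_mul_le_iff₀ (pow_pos hh0 k), mul_one, ← hpow]
    exact pow_le_pow_of_le_one hh0.le hh1 (Nat.le_succ k)
  have e3 : h⁻¹ ^ k * (A * r ^ 2) ≤ A * r := by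
    calc h⁻¹ ^ k * (A * r ^ 2) = (h⁻¹ ^ k * r) * (A * r) := by ring
      _ ≤ 1 * (A * r) := mul_le_mul_of_nonneg_right e2 (by positivity)
      _ = A * r := one_mul _
  calc A' * (h⁻¹ ^ k * (A * r ^ 2) + r * (2 * M)) ≤ A' * (A * r + r * (2 * M)) :=
        mul_le_mul_of_nonneg_left (by linarith) hA'
    _ = A' * (A + 2 * M) * r := by ring

/-- bounds of compositions -/
theorem bd_comp (n : ℕ) {C D : ℝ} (hC : 0 ≤ C) (hD : 1 ≤ D) : ∃ C', 0 ≤ C' ∧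
    ∀ (g h F : E2 → E2) (s t : Set E2), IsOpen s → IsOpen t → ContDiffOn ℝ ∞ g t →
    ContDiffOn ℝ ∞ h s → MapsTo h s t → (∀ i ≤ n, ∀ v ∈ t, ‖iteratedFDeriv ℝ i g v‖ ≤ C) →
    (∀ i ≤ n, 1 ≤ i → ∀ v ∈ s, ‖iteratedFDeriv ℝ i h v‖ ≤ D) → (∀ v ∈ s, F v = g (h v)) →
    ∀ i ≤ n, ∀ v ∈ s, ‖iteratedFDeriv ℝ i F v‖ ≤ C' := by
  refine ⟨∑ i ∈ Finset.range (n + 1), (i ! : ℝ) * C * D ^ i, Finset.sum_nonneg fun i _ => ?_,
    fun g h F s t hs ht hg hh hst hgC hhD hF i hi v hv => ?_⟩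
  · have : 0 ≤ D := zero_le_one.trans hD
    positivity
  · refine (norm_comp_le_open hs ht hg hh hst hv i hD (fun a ha => ?_) (fun a ha1 ha => ?_) hF).trans
      (Finset.single_le_sum (f := fun i : ℕ => (i ! : ℝ) * C * D ^ i) (fun a _ => ?_)
        (Finset.mem_range.2 (by omega)))
    · exact hgC a (ha.trans hi) _ (hst hv)
    · exact hhD a (ha.trans hi) ha1 v hv
    · have : 0 ≤ D := zero_le_one.trans hD
      positivity

/-- one bound for finitely many orders -/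
theorem bd_all (n : ℕ) {p : ℕ → ℝ → Prop} (hp : ∀ i, ∀ a b, a ≤ b → p i a → p i b)
    (h : ∀ i ≤ n, ∃ C, p i C) : ∃ C, 1 ≤ C ∧ ∀ i ≤ n, p i C := by
  induction n with
  | zero =>
    obtain ⟨C, hC⟩ := h 0 le_rfl
    refine ⟨max 1 C, le_max_left _ _, fun i hi => ?_⟩
    obtain rfl : i = 0 := by omega
    exact hp _ _ _ (le_max_right _ _) hC
  | succ n ih =>
    obtain ⟨C, hC1, hC⟩ := ih fun i hi => h i (hi.trans (Nat.le_succ n))
    obtain ⟨C', hC'⟩ := h (n + 1) le_rfl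
    refine ⟨max C C', hC1.trans (le_max_left _ _), fun i hi => ?_⟩
    rcases Nat.lt_or_ge n i with h1 | h1
    · obtain rfl : i = n + 1 := by omega
      exact hp _ _ _ (le_max_right _ _) hC'
    · exact hp _ _ _ (le_max_left _ _) (hC i h1)

variable {Γ X B : Type} [Group Γ] [MetricSpace X] [ProperSpace X] [MulAction Γ X]
  [IsIsometricSMul Γ X] [TopologicalSpace B] [CompactSpace B] [T2Space B] [MulAction Γ B]
  [ContinuousConstSMul Γ B] {L : Leaf Γ X B} (o : Orb L)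

/-- the time of the frame `β^j y` over the level of the axis frame -/
def sy (j : ℕ) (y : X) : ℝ := L.lv y + j * o.l - L.lv o.x

/-- the frame of `β^j y` at the level of the axis frame -/
def fr (j : ℕ) (y : X) : X := L.φ (-(sy o j y)) (o.β ^ j • y)

theorem fr_em (j : ℕ) {y : X} (hy : L.em y = o.neg) : L.em (fr o j y) = o.neg := by
  rw [fr, L.em_φ, L.em_smul, hy]
  exact H147.Ax.pow_smul_em o.ax j

theorem fr_ep (j : ℕ) (y : X) : L.ep (fr o j y) = o.β ^ j • L.ep y := by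
  rw [fr, H147.ep_φ, H147.ep_smul]

theorem fr_lv (j : ℕ) {y : X} (hy : L.em y = o.neg) : L.lv (fr o j y) = L.lv o.x := by
  rw [fr, L.lv_φ, H147.Ax.lv_pow_smul o.ax hy, sy]
  ring

theorem sy_cont (j : ℕ) : Continuous (sy o j) := by
  unfold sy
  exact (L.lv_cont.add continuous_const).sub continuous_const

theorem fr_cont (j : ℕ) : Continuous (fr o j) :=
  L.φ_cont.comp ((sy_cont o j).neg.prodMk (continuous_const_smul _))

theorem φ_fr (j : ℕ) (y : X) : L.φ (sy o j y) (fr o j y) = o.β ^ j • y := by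
  rw [fr, H147.φ_sub_cancel]

/-- **(1)** for `j` large the discs of the frames `fr j y` lie in the disc of the axis frame -/
theorem exists_fr {Q : Set X} (hQ : IsCompact Q) (hQx : ∀ y ∈ Q, L.em y = o.neg) :
    ∃ j : ℕ, ∀ y ∈ Q, L.t1 ≤ sy o j y ∧
      ∀ v ∈ closedBall (0 : E2) 1, L.e (fr o j y) v ∈ L.e o.x '' ball 0 (5 / 4) := by
  obtain ⟨c, hc⟩ := hQ.exists_bound_of_continuousOn L.lv_cont.continuousOn
  have hl := o.ax.pos
  obtain ⟨j₀, hj₀⟩ : ∃ j₀ : ℕ, (L.t1 + |L.lv o.x| + c) / o.l ≤ j₀ := exists_nat_ge _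
  have hs : ∀ j : ℕ, j₀ ≤ j → ∀ y ∈ Q, L.t1 ≤ sy o j y := by
    intro j hj y hy
    have h1 := hc y hy
    rw [Real.norm_eq_abs] at h1
    have h2 := neg_abs_le (L.lv y)
    have h3 := le_abs_self (L.lv o.x)
    rw [div_le_iff₀ hl] at hj₀
    have h4 : (j₀ : ℝ) * o.l ≤ j * o.l :=
      mul_le_mul_of_nonneg_right (by exact_mod_cast hj) hl.le
    rw [sy]
    linarith
  by_contra hcon
  push Not at hcon
  have hex : ∀ n : ℕ, ∃ y ∈ Q, ∃ v ∈ closedBall (0 : E2) 1,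
      L.e (fr o (j₀ + n) y) v ∉ L.e o.x '' ball 0 (5 / 4) := by
    intro n
    obtain ⟨y, hy, h⟩ := hcon (j₀ + n)
    obtain ⟨v, hv, hv'⟩ := h (hs _ (Nat.le_add_right _ _) y hy)
    exact ⟨y, hy, v, hv, hv'⟩
  choose y hy v hv hbad using hex
  -- the frames stay in a compact set
  have hne : o.neg ≠ o.pos := L.em_ne_ep o.x
  have hn : ({o.neg} : Set B)ᶜ ∈ 𝓝 o.pos := isClosed_singleton.isOpen_compl.mem_nhds hne.symm
  obtain ⟨V, hV, hVc, hVs⟩ := exists_mem_nhds_isClosed_subset hn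
  have hK1 := L.hopf_proper ({o.neg} ×ˢ V) (isCompact_singleton.prod hVc.isCompact)
    (by
      rintro ⟨p, q⟩ ⟨hp, hq⟩ hpq
      simp only [mem_singleton_iff] at hp hpq
      exact hVs hq (by rw [mem_singleton_iff, ← hpq, hp])) |L.lv o.x|
  have hnorth : ∀ W : Set B, W ∈ 𝓝 o.pos → ∀ᶠ n in atTop, L.ep (fr o (j₀ + n) (y n)) ∈ W := by
    intro W hW
    have h1 := H147.Ax.north o.ax (K := L.ep '' Q) (hQ.image (H147.ep_cont L)) (by
      rintro ⟨z, hz, he⟩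
      exact L.em_ne_ep z (by rw [he, hQx z hz]; rfl)) hW
    have h2 : Tendsto (fun n : ℕ => j₀ + n) atTop atTop := tendsto_add_atTop_nat j₀ |>.congr
      fun n => Nat.add_comm _ _
    filter_upwards [h2.eventually h1] with n hn
    rw [fr_ep]
    exact hn _ (mem_image_of_mem _ (hy n))
  obtain ⟨n₀, hn₀⟩ := eventually_atTop.1 (hnorth V hV)
  have hmem : ∀ n, (fr o (j₀ + (n₀ + n)) (y (n₀ + n)), v (n₀ + n)) ∈
      {x | (L.em x, L.ep x) ∈ ({o.neg} : Set B) ×ˢ V ∧ |L.lv x| ≤ |L.lv o.x|} ×ˢ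
        closedBall (0 : E2) 1 := by
    intro n
    refine ⟨⟨⟨?_, hn₀ _ (Nat.le_add_right _ _)⟩, ?_⟩, hv _⟩
    · exact fr_em o _ (hQx _ (hy _))
    · rw [fr_lv o _ (hQx _ (hy _))]
  obtain ⟨⟨f₀, v₀⟩, ⟨hf₀, hv₀⟩, ψ, hψ, hlim⟩ :=
    (hK1.prod (isCompact_closedBall (0 : E2) 1)).tendsto_subseq hmem
  have hlf : Tendsto (fun n => fr o (j₀ + (n₀ + ψ n)) (y (n₀ + ψ n))) atTop (𝓝 f₀) :=
    (continuous_fst.tendsto _).comp hlim
  have hlv : Tendsto (fun n => v (n₀ + ψ n)) atTop (𝓝 v₀) := (continuous_snd.tendsto _).comp hlim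
  have hidx : Tendsto (fun n => n₀ + ψ n) atTop atTop :=
    tendsto_atTop_mono (fun n => Nat.le_add_left _ _) hψ.tendsto_atTop
  have e1 : L.em f₀ = L.em o.x := by
    have h1 := ((L.em_cont.tendsto _).comp hlf)
    refine tendsto_nhds_unique h1 ?_
    have h2 : ∀ n, L.em (fr o (j₀ + (n₀ + ψ n)) (y (n₀ + ψ n))) = L.em o.x := fun n =>
      fr_em o _ (hQx _ (hy _))
    simp only [Function.comp_def, h2]
    exact tendsto_const_nhds
  have e2 : L.ep f₀ = L.ep o.x := by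
    have h1 := (((H147.ep_cont L).tendsto _).comp hlf)
    refine tendsto_nhds_unique h1 ?_
    intro W hW
    exact (hidx.eventually (hnorth W hW))
  have e3 : L.lv f₀ = L.lv o.x := by
    have h1 := ((L.lv_cont.tendsto _).comp hlf)
    refine tendsto_nhds_unique h1 ?_
    have h2 : ∀ n, L.lv (fr o (j₀ + (n₀ + ψ n)) (y (n₀ + ψ n))) = L.lv o.x := fun n =>
      fr_lv o _ (hQx _ (hy _))
    simp only [Function.comp_def, h2]
    exact tendsto_const_nhds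
  obtain ⟨a, ha⟩ := L.frame_unique o.x f₀ e1.symm e2.symm e3.symm
  have hv3 : v₀ ∈ closedBall (0 : E2) 3 := closedBall_subset_closedBall (by norm_num) hv₀
  have h5 : L.e f₀ v₀ = L.e o.x (a v₀) := by rw [ha, L.e_rot a o.x v₀ hv3]
  have h6 : Tendsto (fun n => L.e (fr o (j₀ + (n₀ + ψ n)) (y (n₀ + ψ n))) (v (n₀ + ψ n))) atTop
      (𝓝 (L.e f₀ v₀)) := by
    have h3 := L.e_cont (f₀, v₀) ⟨trivial, hv3⟩
    exact h3.tendsto.comp (tendsto_nhdsWithin_iff.2 ⟨hlf.prodMk_nhds hlv,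
      Eventually.of_forall fun n => ⟨trivial,
        closedBall_subset_closedBall (by norm_num) (hv _)⟩⟩)
  have h7 : L.e o.x '' ball 0 (5 / 4) ∈ 𝓝 (L.e f₀ v₀) := by
    refine (L.isOpen_image o.x isOpen_ball (ball_subset_ball (by norm_num))).mem_nhds ?_
    rw [h5]
    refine ⟨a v₀, ?_, rfl⟩
    have := H147.isom_mem' (a := a) hv₀
    exact closedBall_subset_ball (by norm_num) this
  obtain ⟨n, hn⟩ := (h6.eventually h7).exists
  exact hbad _ hn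

/-- **(2)** frames close to the frames `fr j y` and to the axis frame -/
theorem near_fr {Q₁ : Set X} (hQ₁ : IsCompact Q₁) (hlv : ∀ f ∈ Q₁, L.lv f = L.lv o.x)
    (hf : ∀ f ∈ Q₁, ∀ v ∈ closedBall (0 : E2) 1, L.e f v ∈ L.e o.x '' ball 0 (5 / 4)) :
    ∃ δ > 0, ∀ f ∈ Q₁, ∀ f', dist f f' ≤ δ → ∀ p, dist p o.x ≤ δ →
      |L.lv f' - L.lv p| ≤ 1 ∧
      ∀ v ∈ closedBall (0 : E2) 1, L.e f' v ∈ L.e p '' ball 0 (3 / 2) := by
  by_contra hcon
  push Not at hcon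
  have hex : ∀ n : ℕ, ∃ f ∈ Q₁, ∃ f', dist f f' ≤ 1 / ((n : ℝ) + 1) ∧ ∃ p,
      dist p o.x ≤ 1 / ((n : ℝ) + 1) ∧ ∃ v ∈ closedBall (0 : E2) 1,
      (|L.lv f' - L.lv p| ≤ 1 → L.e f' v ∉ L.e p '' ball 0 (3 / 2)) := by
    intro n
    obtain ⟨f, hf, f', h1, p, h2, h3⟩ := hcon (1 / ((n : ℝ) + 1)) (by positivity)
    by_cases h4 : |L.lv f' - L.lv p| ≤ 1
    · obtain ⟨v, hv, hv'⟩ := h3 h4
      exact ⟨f, hf, f', h1, p, h2, v, hv, fun _ => hv'⟩
    · exact ⟨f, hf, f', h1, p, h2, 0, by simp, fun h => absurd h h4⟩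
  choose f hf1 f' hff' p hp v hv hbad using hex
  obtain ⟨⟨f₀, v₀⟩, ⟨hf₀, hv₀⟩, ψ, hψ, hlim⟩ :=
    (hQ₁.prod (isCompact_closedBall (0 : E2) 1)).tendsto_subseq
      (x := fun n => (f n, v n)) (fun n => ⟨hf1 n, hv n⟩)
  have hlf : Tendsto (fun n => f (ψ n)) atTop (𝓝 f₀) := (continuous_fst.tendsto _).comp hlim
  have hlv' : Tendsto (fun n => v (ψ n)) atTop (𝓝 v₀) := (continuous_snd.tendsto _).comp hlim
  have h0 : Tendsto (fun n : ℕ => 1 / ((ψ n : ℝ) + 1)) atTop (𝓝 0) :=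
    tendsto_one_div_add_atTop_nhds_zero_nat.comp hψ.tendsto_atTop
  have hlf' : Tendsto (fun n => f' (ψ n)) atTop (𝓝 f₀) := by
    have h1 : Tendsto (fun n => dist (f (ψ n)) (f' (ψ n))) atTop (𝓝 0) :=
      squeeze_zero (fun n => dist_nonneg) (fun n => hff' _) h0
    exact (tendsto_iff_of_dist h1).1 hlf
  have hlp : Tendsto (fun n => p (ψ n)) atTop (𝓝 o.x) := by
    rw [tendsto_iff_dist_tendsto_zero]
    exact squeeze_zero (fun n => dist_nonneg) (fun n => hp _) h0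
  have hv3 : v₀ ∈ closedBall (0 : E2) 3 := closedBall_subset_closedBall (by norm_num) hv₀
  obtain ⟨w, hw, hwe⟩ := hf f₀ hf₀ v₀ hv₀
  have hw3 : w ∈ ball (0 : E2) 3 := ball_subset_ball (by norm_num) hw
  have h6 : Tendsto (fun n => L.e (f' (ψ n)) (v (ψ n))) atTop (𝓝 (L.e o.x w)) := by
    rw [hwe]
    have h3 := L.e_cont (f₀, v₀) ⟨trivial, hv3⟩
    exact h3.tendsto.comp (tendsto_nhdsWithin_iff.2 ⟨hlf'.prodMk_nhds hlv',
      Eventually.of_forall fun n => ⟨trivial,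
        closedBall_subset_closedBall (by norm_num) (hv _)⟩⟩)
  obtain ⟨h7, h8⟩ := L.inv_tendsto hlp h6 hw3
  have h9 : ∀ᶠ n in atTop, L.inv (p (ψ n)) (L.e (f' (ψ n)) (v (ψ n))) ∈ ball (0 : E2) (3 / 2) :=
    h8.eventually (isOpen_ball.mem_nhds (ball_subset_ball (by norm_num) hw))
  have h10 : Tendsto (fun n => |L.lv (f' (ψ n)) - L.lv (p (ψ n))|) atTop (𝓝 |L.lv f₀ - L.lv o.x|) :=
    (((L.lv_cont.tendsto _).comp hlf').sub ((L.lv_cont.tendsto _).comp hlp)).abs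
  rw [hlv f₀ hf₀, sub_self, abs_zero] at h10
  obtain ⟨n, ⟨hn1, hn2⟩, hn3⟩ := ((h7.and h9).and (h10.eventually (gt_mem_nhds one_pos))).exists
  refine hbad (ψ n) hn3.le ⟨_, hn2, ?_⟩
  exact L.e_inv (image_mono ball_subset_closedBall hn1)

/-- bounds of the transition maps to the axis frame -/
theorem tau_fr_bdd {Q₁ : Set X} (hQ₁ : IsCompact Q₁) (hem : ∀ f ∈ Q₁, L.em f = L.em o.x)
    (hf : ∀ f ∈ Q₁, ∀ v ∈ closedBall (0 : E2) 1, L.e f v ∈ L.e o.x '' ball 0 (5 / 4)) (i : ℕ) :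
    ∃ C, ∀ f ∈ Q₁, ∀ v ∈ closedBall (0 : E2) 1, ‖iteratedFDeriv ℝ i (L.τ f o.x) v‖ ≤ C := by
  have h1 : ContinuousOn (fun q : X × E2 => iteratedFDeriv ℝ i (L.τ q.1 o.x) q.2)
      (Q₁ ×ˢ closedBall 0 1) := by
    refine (L.tau_cont i).comp (f := fun q : X × E2 => ((q.1, o.x), q.2)) (by fun_prop) ?_
    rintro ⟨f, v⟩ ⟨hfQ, hv⟩
    refine ⟨hem f hfQ, closedBall_subset_ball (by norm_num) hv, ?_⟩
    exact image_mono (ball_subset_ball (by norm_num)) (hf f hfQ v hv)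
  obtain ⟨C, hC⟩ := (hQ₁.prod (isCompact_closedBall (0 : E2) 1)).exists_bound_of_continuousOn h1
  exact ⟨C, fun f hfQ v hv => hC (f, v) ⟨hfQ, hv⟩⟩

end Vale.Agent.P207.N3.H686
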