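import Vale.Agent.P207.N3.H266.Metr
import Vale.Agent.P207.N3.H266.TauB
import Vale.Agent.P207.N3.H646.Dens2

/-!
# P207, line N3, row P2-B: the Jacobian of the frame flow along the leaves

For a horospherical metric `M : Metr L`:

* `Metr.det_tau`: `det D τ_{φ_t x, x}(0) = exp (- ∫ tr U)`;
* `coc_of_r`: a continuous solution `r` of `X r + tr U = h` satisfies the hypothesis `Coc` of the
  theorem on the densities of the areas;
* `Metr.det_sum`: `det (U + U ∘ flip)` along the flow;
* `Metr.star`: `log det (U + U ∘ flip) = r + r ∘ flip + const`.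
-/

open Set Filter Topology Metric MeasureTheory intervalIntegral
open scoped ContDiff

noncomputable section

namespace Vale.Agent.P207.N3.H686

/-! ### Determinant and trace in the plane -/

/-- the entries of a matrix -/
def en (i j : Fin 2) (A : E2 →L[ℝ] E2) : ℝ := A (EuclideanSpace.single j 1) i

/-- the trace -/
def tr (A : E2 →L[ℝ] E2) : ℝ := LinearMap.trace ℝ E2 (A : E2 →ₗ[ℝ] E2)

theorem det_en (A : E2 →L[ℝ] E2) :
    A.det = en 0 0 A * en 1 1 A - en 0 1 A * en 1 0 A := by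
  have h1 : A.det =
      (LinearMap.toMatrix (EuclideanSpace.basisFun (Fin 2) ℝ).toBasis
        (EuclideanSpace.basisFun (Fin 2) ℝ).toBasis (A : E2 →ₗ[ℝ] E2)).det := by
    rw [ContinuousLinearMap.det, LinearMap.det_toMatrix]
  rw [h1, Matrix.det_fin_two]
  simp [LinearMap.toMatrix_apply, en]

theorem tr_en (A : E2 →L[ℝ] E2) : tr A = en 0 0 A + en 1 1 A := by
  rw [tr, LinearMap.trace_eq_matrix_trace ℝ (EuclideanSpace.basisFun (Fin 2) ℝ).toBasis,
    Matrix.trace_fin_two]
  simp [LinearMap.toMatrix_apply, en]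

theorem tr_add (A C : E2 →L[ℝ] E2) : tr (A + C) = tr A + tr C := by
  simp [tr]

theorem tr_neg (A : E2 →L[ℝ] E2) : tr (-A) = -tr A := by
  simp [tr]

theorem en_comp (i j : Fin 2) (A C : E2 →L[ℝ] E2) :
    en i j (A ∘L C) = en i 0 A * en 0 j C + en i 1 A * en 1 j C := by
  have h1 : C (EuclideanSpace.single j 1)
      = en 0 j C • EuclideanSpace.single (0 : Fin 2) (1 : ℝ)
        + en 1 j C • EuclideanSpace.single (1 : Fin 2) (1 : ℝ) := by
    ext k
    fin_cases k <;> simp [en]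
  have h2 : en i j (A ∘L C) = A (C (EuclideanSpace.single j 1)) i := rfl
  rw [h2, h1, map_add, map_smul, map_smul]
  simp only [en, PiLp.add_apply, PiLp.smul_apply, smul_eq_mul]
  ring

theorem en_add (i j : Fin 2) (A C : E2 →L[ℝ] E2) : en i j (A + C) = en i j A + en i j C := by
  simp [en]

theorem en_sub (i j : Fin 2) (A C : E2 →L[ℝ] E2) : en i j (A - C) = en i j A - en i j C := by
  simp [en]

theorem en_neg (i j : Fin 2) (A : E2 →L[ℝ] E2) : en i j (-A) = -en i j A := by
  simp [en]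

theorem continuous_en (i j : Fin 2) : Continuous (en i j) := by
  have h1 : Continuous fun A : E2 →L[ℝ] E2 => A (EuclideanSpace.single j (1 : ℝ)) :=
    (ContinuousLinearMap.apply ℝ E2 (EuclideanSpace.single j (1 : ℝ))).continuous
  exact (by fun_prop : Continuous fun v : E2 => v i).comp h1

theorem continuous_tr : Continuous tr := by
  have : tr = fun A => en 0 0 A + en 1 1 A := funext tr_en
  rw [this]
  exact (continuous_en 0 0).add (continuous_en 1 1)

theorem continuous_det : Continuous fun A : E2 →L[ℝ] E2 => A.det := by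
  have : (fun A : E2 →L[ℝ] E2 => A.det)
      = fun A => en 0 0 A * en 1 1 A - en 0 1 A * en 1 0 A := funext det_en
  rw [this]
  exact ((continuous_en 0 0).mul (continuous_en 1 1)).sub
    ((continuous_en 0 1).mul (continuous_en 1 0))

theorem hasDerivAt_en (i j : Fin 2) {A : ℝ → E2 →L[ℝ] E2} {A' : E2 →L[ℝ] E2} {t : ℝ}
    (h : HasDerivAt A A' t) : HasDerivAt (fun s => en i j (A s)) (en i j A') t := by
  have h1 : HasDerivAt (fun s => A s (EuclideanSpace.single j (1 : ℝ)))
      (A' (EuclideanSpace.single j (1 : ℝ))) t := by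
    have h2 := h.clm_apply (hasDerivAt_const t (EuclideanSpace.single j (1 : ℝ)))
    simpa using h2
  have h3 := (EuclideanSpace.proj (𝕜 := ℝ) i : E2 →L[ℝ] ℝ).hasFDerivAt.comp_hasDerivAt t h1
  exact h3

/-- the derivative of the determinant -/
theorem hasDerivAt_det {A : ℝ → E2 →L[ℝ] E2} {A' : E2 →L[ℝ] E2} {t : ℝ}
    (h : HasDerivAt A A' t) : HasDerivAt (fun s => (A s).det)
      (en 0 0 A' * en 1 1 (A t) + en 0 0 (A t) * en 1 1 A'
        - (en 0 1 A' * en 1 0 (A t) + en 0 1 (A t) * en 1 0 A')) t := by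
  have h1 : (fun s => (A s).det)
      = fun s => en 0 0 (A s) * en 1 1 (A s) - en 0 1 (A s) * en 1 0 (A s) :=
    funext fun s => det_en (A s)
  rw [h1]
  exact ((hasDerivAt_en 0 0 h).mul (hasDerivAt_en 1 1 h)).sub
    ((hasDerivAt_en 0 1 h).mul (hasDerivAt_en 1 0 h))

/-- Jacobi's formula for `A' = A V - W A` -/
theorem hasDerivAt_det_of {A : ℝ → E2 →L[ℝ] E2} {V W : E2 →L[ℝ] E2} {t : ℝ}
    (h : HasDerivAt A (A t ∘L V - W ∘L A t) t) :
    HasDerivAt (fun s => (A s).det) ((tr V - tr W) * (A t).det) t := by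
  have h1 := hasDerivAt_det h
  have h2 : en 0 0 (A t ∘L V - W ∘L A t) * en 1 1 (A t)
        + en 0 0 (A t) * en 1 1 (A t ∘L V - W ∘L A t)
        - (en 0 1 (A t ∘L V - W ∘L A t) * en 1 0 (A t)
          + en 0 1 (A t) * en 1 0 (A t ∘L V - W ∘L A t))
      = (tr V - tr W) * (A t).det := by
    rw [det_en, tr_en, tr_en]
    simp only [en_sub, en_comp]
    ring
  rwa [h2] at h1

/-- a scalar linear equation -/
theorem exp_ode {f g : ℝ → ℝ} (hg : Continuous g) (hf : ∀ t, HasDerivAt f (g t * f t) t) (t : ℝ) :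
    f t = f 0 * Real.exp (∫ s in (0 : ℝ)..t, g s) := by
  have h1 : ∀ t, HasDerivAt (fun u => ∫ s in (0 : ℝ)..u, g s) (g t) t := fun t =>
    integral_hasDerivAt_right (hg.intervalIntegrable _ _) (hg.stronglyMeasurableAtFilter _ _)
      hg.continuousAt
  have h2 : ∀ t, HasDerivAt (fun u => f u * Real.exp (-∫ s in (0 : ℝ)..u, g s)) 0 t := by
    intro t
    have h3 : HasDerivAt (fun u => f u * Real.exp (-∫ s in (0 : ℝ)..u, g s))
        (g t * f t * Real.exp (-∫ s in (0 : ℝ)..t, g s)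
          + f t * (Real.exp (-∫ s in (0 : ℝ)..t, g s) * -g t)) t :=
      (hf t).mul (HasDerivAt.exp (h1 t).neg)
    have h4 : g t * f t * Real.exp (-∫ s in (0 : ℝ)..t, g s)
        + f t * (Real.exp (-∫ s in (0 : ℝ)..t, g s) * -g t) = 0 := by ring
    rwa [h4] at h3
  have h3 := is_const_of_deriv_eq_zero (fun t => (h2 t).differentiableAt)
    (fun t => (h2 t).deriv) t 0
  simp only [intervalIntegral.integral_same, neg_zero, Real.exp_zero, mul_one] at h3
  rw [← h3, mul_assoc, ← Real.exp_add, neg_add_cancel, Real.exp_zero, mul_one]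

/-! ### The Jacobian of the flow -/

variable {Γ X B : Type} [Group Γ] [MetricSpace X] [ProperSpace X] [MulAction Γ X]
  [IsIsometricSMul Γ X] [TopologicalSpace B] [CompactSpace B] [T2Space B] [MulAction Γ B]
  [ContinuousConstSMul Γ B] {L : Leaf Γ X B}

theorem cont_flow (L : Leaf Γ X B) (x : X) : Continuous fun s : ℝ => L.φ s x :=
  L.φ_cont.comp (by fun_prop : Continuous fun s : ℝ => ((s, x) : ℝ × X))

theorem cont_trU (M : Metr L) : Continuous fun x => tr (M.U x) := continuous_tr.comp M.U_cont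

/-- the Jacobian of the transition map at `0`, for all times -/
theorem det_tau (M : Metr L) (x : X) (t : ℝ) :
    (fderiv ℝ (L.τ (L.φ t x) x) 0).det
      = Real.exp (-∫ s in (0 : ℝ)..t, tr (M.U (L.φ s x))) := by
  have hg : Continuous fun s : ℝ => -tr (M.U (L.φ s x)) :=
    ((cont_trU M).comp (cont_flow L x)).neg
  have hf : ∀ t : ℝ, HasDerivAt (fun s => (fderiv ℝ (L.τ (L.φ s x) x) 0).det)
      (-tr (M.U (L.φ t x)) * (fderiv ℝ (L.τ (L.φ t x) x) 0).det) t := by
    intro t
    have h1 := M.jac x t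
    have h2 : HasDerivAt (fun s => fderiv ℝ (L.τ (L.φ s x) x) 0)
        (fderiv ℝ (L.τ (L.φ t x) x) 0 ∘L (-M.U (L.φ t x))
          - (0 : E2 →L[ℝ] E2) ∘L fderiv ℝ (L.τ (L.φ t x) x) 0) t := by
      have h3 : fderiv ℝ (L.τ (L.φ t x) x) 0 ∘L (-M.U (L.φ t x))
          - (0 : E2 →L[ℝ] E2) ∘L fderiv ℝ (L.τ (L.φ t x) x) 0
          = -(fderiv ℝ (L.τ (L.φ t x) x) 0 ∘L M.U (L.φ t x)) := by
        ext v i
        simp
      rw [h3]
      exact h1
    have h4 := hasDerivAt_det_of h2
    have h5 : tr (-M.U (L.φ t x)) - tr (0 : E2 →L[ℝ] E2) = -tr (M.U (L.φ t x)) := by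
      rw [tr_neg]
      simp [tr]
    rwa [h5] at h4
  have h6 := exp_ode hg hf t
  have h7 : fderiv ℝ (L.τ x x) 0 = ContinuousLinearMap.id ℝ E2 :=
    Ten.fderiv_tau_self Ten.mem_ball0
  rw [h6, L.φ_zero, h7, intervalIntegral.integral_neg]
  simp [ContinuousLinearMap.det]

/-- a continuous solution of `X r + tr U = h` satisfies the hypothesis of the area theorem -/
theorem coc_of_r (M : Metr L) {h : ℝ} {r : X → ℝ} (rc : Continuous r)
    (rs : ∀ (g : Γ) x, r (g • x) = r x) (rr : ∀ a x, r (L.rot a x) = r x)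
    (hr : ∀ (t : ℝ) x, r (L.φ t x) - r x = h * t - ∫ s in (0 : ℝ)..t, tr (M.U (L.φ s x))) :
    H646.Coc L r h := by
  refine ⟨rc, rs, rr, fun x t _ => ?_⟩
  rw [det_tau M x t, abs_of_pos (Real.exp_pos _), Real.log_exp, hr t x]
  ring

/-! ### The form `U + U ∘ flip` -/

/-- `U + U ∘ flip` -/
def S (M : Metr L) (x : X) : E2 →L[ℝ] E2 := M.U x + M.U (L.flip x)

theorem S_cont (M : Metr L) : Continuous (S M) := M.U_cont.add (M.U_cont.comp L.flip_cont)

theorem S_flip (M : Metr L) (x : X) : S M (L.flip x) = S M x := by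
  rw [S, S, L.flip_flip, add_comm]

theorem S_smul (M : Metr L) (g : Γ) (x : X) : S M (g • x) = S M x := by
  rw [S, S, L.flip_smul, M.U_smul, M.U_smul]

theorem S_rot (M : Metr L) (a : O2) (x : X) (v : E2) :
    S M (L.rot a x) v = a.symm (S M x (a v)) := by
  simp only [S, L.flip_rot, ContinuousLinearMap.add_apply, M.U_rot, map_add]

theorem S_pos (M : Metr L) (x : X) {v : E2} (hv : v ≠ 0) : 0 < inner ℝ (S M x v) v := by
  rw [S, ContinuousLinearMap.add_apply, inner_add_left]
  exact add_pos (M.U_pos _ _ hv) (M.U_pos _ _ hv)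

theorem S_symm (M : Metr L) (x : X) (v w : E2) : inner ℝ (S M x v) w = inner ℝ v (S M x w) := by
  rw [S, ContinuousLinearMap.add_apply, ContinuousLinearMap.add_apply, inner_add_left,
    inner_add_right, M.U_symm, M.U_symm]

theorem det_S_rot (M : Metr L) (a : O2) (x : X) : (S M (L.rot a x)).det = (S M x).det := by
  have h1 : ((S M (L.rot a x) : E2 →L[ℝ] E2) : E2 →ₗ[ℝ] E2)
      = (a.symm.toLinearEquiv : E2 →ₗ[ℝ] E2) ∘ₗ (S M x : E2 →ₗ[ℝ] E2)
        ∘ₗ (a.symm.toLinearEquiv.symm : E2 →ₗ[ℝ] E2) := by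
    ext v : 1
    exact S_rot M a x v
  rw [ContinuousLinearMap.det, ContinuousLinearMap.det, h1, LinearMap.det_conj]

theorem det_S_pos (M : Metr L) (x : X) : 0 < (S M x).det := by
  set A := S M x with hA
  have h00 : 0 < en 0 0 A := by
    have h1 := S_pos M x (v := EuclideanSpace.single (0 : Fin 2) (1 : ℝ))
      (by
        intro h
        have := congrArg (fun v : E2 => v 0) h
        simp at this)
    have h2 : inner ℝ (S M x (EuclideanSpace.single (0 : Fin 2) (1 : ℝ)))
        (EuclideanSpace.single (0 : Fin 2) (1 : ℝ)) = en 0 0 A := by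
      rw [EuclideanSpace.inner_single_right]
      simp [en, hA]
    rwa [h2] at h1
  have hs : en 0 1 A = en 1 0 A := by
    have h1 := S_symm M x (EuclideanSpace.single (0 : Fin 2) (1 : ℝ))
      (EuclideanSpace.single (1 : Fin 2) (1 : ℝ))
    rw [EuclideanSpace.inner_single_right, EuclideanSpace.inner_single_left] at h1
    simp only [map_one, one_mul, conj_trivial] at h1
    exact h1.symm
  have h3 : 0 < inner ℝ (A (!₂[-en 0 1 A, en 0 0 A])) (!₂[-en 0 1 A, en 0 0 A] : E2) := by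
    apply S_pos
    intro h
    have := congrArg (fun v : E2 => v 1) h
    simp at this
    exact h00.ne' this
  have h4 : (!₂[-en 0 1 A, en 0 0 A] : E2)
      = (-en 0 1 A) • EuclideanSpace.single (0 : Fin 2) (1 : ℝ)
        + (en 0 0 A) • EuclideanSpace.single (1 : Fin 2) (1 : ℝ) := by
    ext k
    fin_cases k <;> simp
  have h5 : inner ℝ (A (!₂[-en 0 1 A, en 0 0 A])) (!₂[-en 0 1 A, en 0 0 A] : E2)
      = en 0 0 A * A.det := by
    rw [h4, map_add, map_smul, map_smul, inner_add_right, inner_smul_right, inner_smul_right,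
      EuclideanSpace.inner_single_right, EuclideanSpace.inner_single_right, det_en]
    simp only [map_one, one_mul, conj_trivial, PiLp.add_apply, PiLp.smul_apply, smul_eq_mul]
    have e00 : (A (EuclideanSpace.single (0 : Fin 2) (1 : ℝ))) 0 = en 0 0 A := rfl
    have e01 : (A (EuclideanSpace.single (1 : Fin 2) (1 : ℝ))) 0 = en 0 1 A := rfl
    have e10 : (A (EuclideanSpace.single (0 : Fin 2) (1 : ℝ))) 1 = en 1 0 A := rfl
    have e11 : (A (EuclideanSpace.single (1 : Fin 2) (1 : ℝ))) 1 = en 1 1 A := rfl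
    rw [e00, e01, e10, e11, ← hs]
    ring
  rw [h5] at h3
  exact (mul_pos_iff_of_pos_left h00).mp h3

/-- `U + U ∘ flip` along the flow -/
theorem S_deriv (M : Metr L) (x : X) (t : ℝ) :
    HasDerivAt (fun s => S M (L.φ s x))
      (S M (L.φ t x) ∘L M.U (L.flip (L.φ t x)) - M.U (L.φ t x) ∘L S M (L.φ t x)) t := by
  have h1 := M.riccati x t
  have h2 : HasDerivAt (fun s : ℝ => M.U (L.φ (-s) (L.flip x)))
      (-(-(M.U (L.φ (-t) (L.flip x)) ∘L M.U (L.φ (-t) (L.flip x)))
        - M.K (L.φ (-t) (L.flip x)))) t := by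
    have h3 := HasDerivAt.scomp t (M.riccati (L.flip x) (-t)) (hasDerivAt_neg t)
    rw [neg_one_smul] at h3
    exact h3
  have h4 : (fun s => S M (L.φ s x)) = fun s => M.U (L.φ s x) + M.U (L.φ (-s) (L.flip x)) :=
    funext fun s => by rw [S, L.flip_φ]
  rw [h4]
  have h5 := h1.add h2
  have h6 : S M (L.φ t x) ∘L M.U (L.flip (L.φ t x)) - M.U (L.φ t x) ∘L S M (L.φ t x)
      = (-(M.U (L.φ t x) ∘L M.U (L.φ t x)) - M.K (L.φ t x))
        + -(-(M.U (L.φ (-t) (L.flip x)) ∘L M.U (L.φ (-t) (L.flip x)))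
        - M.K (L.φ (-t) (L.flip x))) := by
    have h7 : M.K (L.φ (-t) (L.flip x)) = M.K (L.φ t x) := by
      rw [← L.flip_φ, M.K_flip]
    rw [h7, S, L.flip_φ]
    ext v i
    simp
    ring
  rw [h6]
  exact h5

/-- the determinant of `U + U ∘ flip` along the flow -/
theorem det_S (M : Metr L) (x : X) (t : ℝ) :
    (S M (L.φ t x)).det = (S M x).det * Real.exp (∫ s in (0 : ℝ)..t,
      (tr (M.U (L.flip (L.φ s x))) - tr (M.U (L.φ s x)))) := by
  have hg : Continuous fun s : ℝ => tr (M.U (L.flip (L.φ s x))) - tr (M.U (L.φ s x)) :=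
    (((cont_trU M).comp L.flip_cont).comp (cont_flow L x)).sub
      ((cont_trU M).comp (cont_flow L x))
  have h1 := exp_ode hg (f := fun s => (S M (L.φ s x)).det)
    (fun t => hasDerivAt_det_of (S_deriv M x t)) t
  simpa [L.φ_zero] using h1

/-- `log det (U + U ∘ flip) - r - r ∘ flip` is invariant under the flow -/
theorem star_inv (M : Metr L) {h : ℝ} {r : X → ℝ}
    (hr : ∀ (t : ℝ) x, r (L.φ t x) - r x = h * t - ∫ s in (0 : ℝ)..t, tr (M.U (L.φ s x)))
    (t : ℝ) (x : X) :
    Real.log (S M (L.φ t x)).det - r (L.φ t x) - r (L.flip (L.φ t x))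
      = Real.log (S M x).det - r x - r (L.flip x) := by
  have h1 := hr t x
  have h2 := hr (-t) (L.flip x)
  have c1 : Continuous fun s : ℝ => tr (M.U (L.flip (L.φ s x))) :=
    ((cont_trU M).comp L.flip_cont).comp (cont_flow L x)
  have c2 : Continuous fun s : ℝ => tr (M.U (L.φ s x)) := (cont_trU M).comp (cont_flow L x)
  have h3 : ∫ s in (0 : ℝ)..(-t), tr (M.U (L.φ s (L.flip x)))
      = -∫ s in (0 : ℝ)..t, tr (M.U (L.flip (L.φ s x))) := by
    have h4 : ∫ s in (0 : ℝ)..t, tr (M.U (L.flip (L.φ s x)))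
        = ∫ s in (0 : ℝ)..t, tr (M.U (L.φ (-s) (L.flip x))) :=
      intervalIntegral.integral_congr fun s _ => by simp only [L.flip_φ]
    rw [h4, intervalIntegral.integral_comp_neg (fun s : ℝ => tr (M.U (L.φ s (L.flip x)))),
      neg_zero, intervalIntegral.integral_symm]
  rw [h3] at h2
  rw [det_S M x t, Real.log_mul (det_S_pos M x).ne' (Real.exp_ne_zero _), Real.log_exp,
    intervalIntegral.integral_sub (c1.intervalIntegrable _ _) (c2.intervalIntegrable _ _),
    L.flip_φ]
  linarith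

/-- (1*): `log det (U + U ∘ flip) = r + r ∘ flip + c`; `hinv` is the statement that invariant
continuous functions are constant -/
theorem star (M : Metr L) {h : ℝ} {r : X → ℝ} (rc : Continuous r)
    (rs : ∀ (g : Γ) x, r (g • x) = r x) (rr : ∀ a x, r (L.rot a x) = r x)
    (hr : ∀ (t : ℝ) x, r (L.φ t x) - r x = h * t - ∫ s in (0 : ℝ)..t, tr (M.U (L.φ s x)))
    (hinv : ∀ F : X → ℝ, Continuous F → (∀ (g : Γ) x, F (g • x) = F x) →
      (∀ a x, F (L.rot a x) = F x) → (∀ t x, F (L.φ t x) = F x) → ∃ c, ∀ x, F x = c) :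
    ∃ c : ℝ, ∀ x, Real.log (S M x).det = r x + r (L.flip x) + c := by
  obtain ⟨c, hc⟩ := hinv (fun x => Real.log (S M x).det - r x - r (L.flip x))
    ((((continuous_det.comp (S_cont M)).log fun x => (det_S_pos M x).ne').sub rc).sub
      (rc.comp L.flip_cont))
    (fun g x => by simp only [S_smul, rs, L.flip_smul])
    (fun a x => by simp only [det_S_rot, rr, L.flip_rot])
    (fun t x => star_inv M hr t x)
  exact ⟨c, fun x => by linarith [hc x]⟩

/-- the normalisation: `r + c / 2` satisfies (1*) without constant -/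
theorem exists_normal (M : Metr L) {h : ℝ} {r : X → ℝ} (rc : Continuous r)
    (rs : ∀ (g : Γ) x, r (g • x) = r x) (rr : ∀ a x, r (L.rot a x) = r x)
    (hr : ∀ (t : ℝ) x, r (L.φ t x) - r x = h * t - ∫ s in (0 : ℝ)..t, tr (M.U (L.φ s x)))
    (hinv : ∀ F : X → ℝ, Continuous F → (∀ (g : Γ) x, F (g • x) = F x) →
      (∀ a x, F (L.rot a x) = F x) → (∀ t x, F (L.φ t x) = F x) → ∃ c, ∀ x, F x = c) :
    ∃ r' : X → ℝ, H646.Coc L r' h ∧
      ∀ x, Real.exp (r' x) * Real.exp (r' (L.flip x)) = (S M x).det := by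
  obtain ⟨c, hc⟩ := star M rc rs rr hr hinv
  refine ⟨fun x => r x + c / 2, coc_of_r M (rc.add continuous_const) (fun g x => by rw [rs])
    (fun a x => by rw [rr]) (fun t x => by rw [← hr t x]; ring), fun x => ?_⟩
  rw [← Real.exp_add, ← Real.exp_log (det_S_pos M x), hc x]
  ring_nf

end Vale.Agent.P207.N3.H686
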